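import Mathlib.Topology.Separation.Profinite
import Mathlib.Topology.Separation.Regular
import Mathlib.Topology.Connected.TotallyDisconnected

/-!
# Separation avoiding countably many compact totally disconnected sets
-/

open Set Topology

namespace Vale.Agent.P260.H283

variable {Z : Type*} [TopologicalSpace Z]

/-- A compact totally disconnected set splits between two disjoint closed sets. -/
theorem split_tot [T2Space Z] {C P Q : Set Z} (hC : IsCompact C) (hCt : IsTotallyDisconnected C)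
    (hP : IsClosed P) (hQ : IsClosed Q) (hd : Disjoint P Q) :
    ∃ C₁ C₂ : Set Z, IsCompact C₁ ∧ IsCompact C₂ ∧ Disjoint C₁ C₂ ∧ C₁ ∪ C₂ = C ∧ C ∩ P ⊆ C₁ ∧
      C ∩ Q ⊆ C₂ := by
  classical
  have : CompactSpace C := isCompact_iff_compactSpace.1 hC
  have : TotallyDisconnectedSpace C := totallyDisconnectedSpace_subtype_iff.2 hCt
  have hP' : IsClosed ((↑) ⁻¹' P : Set C) := hP.preimage continuous_subtype_val
  have hQ' : IsOpen ((↑) ⁻¹' Q : Set C)ᶜ := (hQ.preimage continuous_subtype_val).isOpen_compl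
  have h1 : ∀ x ∈ ((↑) ⁻¹' P : Set C), ∃ V : Set C, IsClopen V ∧ x ∈ V ∧
      V ⊆ ((↑) ⁻¹' Q : Set C)ᶜ := fun x hx =>
    compact_exists_isClopen_in_isOpen hQ' (fun h => (disjoint_left.1 hd) hx h)
  choose! V hVc hxV hVQ using h1
  obtain ⟨t, ht, hcov⟩ := hP'.isCompact.elim_nhds_subcover V
    (fun x hx => (hVc x hx).isOpen.mem_nhds (hxV x hx))
  have hU : IsClopen (⋃ x ∈ t, V x) := t.finite_toSet.isClopen_biUnion fun x hx => hVc x (ht x hx)
  refine ⟨(↑) '' (⋃ x ∈ t, V x), (↑) '' (⋃ x ∈ t, V x)ᶜ, ?_, ?_, ?_, ?_, ?_, ?_⟩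
  · exact hU.isClosed.isCompact.image continuous_subtype_val
  · exact hU.compl.isClosed.isCompact.image continuous_subtype_val
  · rw [disjoint_image_iff Subtype.val_injective]
    exact disjoint_compl_right
  · rw [← image_union, union_compl_self, image_univ, Subtype.range_coe]
  · rintro x ⟨hxC, hxP⟩
    exact ⟨⟨x, hxC⟩, hcov hxP, rfl⟩
  · rintro x ⟨hxC, hxQ⟩
    refine ⟨⟨x, hxC⟩, fun hx => ?_, rfl⟩
    obtain ⟨z, hz, hxz⟩ := mem_iUnion₂.1 hx
    exact hVQ z (ht z hz) hxz hxQ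

theorem av_step [T2Space Z] [NormalSpace Z] {C P Q : Set Z} (hC : IsCompact C)
    (hCt : IsTotallyDisconnected C) (hP : IsClosed P) (hQ : IsClosed Q) (hd : Disjoint P Q) :
    ∃ P' Q' : Set Z, IsClosed P' ∧ IsClosed Q' ∧ Disjoint P' Q' ∧ P ⊆ interior P' ∧
      Q ⊆ interior Q' ∧ C ⊆ interior P' ∪ interior Q' := by
  obtain ⟨C₁, C₂, h1, h2, h12, hU, hCP, hCQ⟩ := split_tot hC hCt hP hQ hd
  have hPC : IsClosed (P ∪ C₁) := hP.union h1.isClosed
  have hQC : IsClosed (Q ∪ C₂) := hQ.union h2.isClosed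
  have hdis : Disjoint (P ∪ C₁) (Q ∪ C₂) := by
    rw [disjoint_left]
    rintro x (hx | hx) (hx' | hx')
    · exact (disjoint_left.1 hd) hx hx'
    · exact (disjoint_left.1 h12) (hCP ⟨hU ▸ Or.inr hx', hx⟩) hx'
    · exact (disjoint_left.1 h12) hx (hCQ ⟨hU ▸ Or.inl hx, hx'⟩)
    · exact (disjoint_left.1 h12) hx hx'
  obtain ⟨O₁, O₂, hO₁, hO₂, hPO, hQO, hO⟩ := normal_separation hPC hQC hdis
  obtain ⟨u, hu, hPu, hu'⟩ := normal_exists_closure_subset hPC hO₁ hPO
  obtain ⟨v, hv, hQv, hv'⟩ := normal_exists_closure_subset hQC hO₂ hQO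
  have hui : u ⊆ interior (closure u) := interior_maximal subset_closure hu
  have hvi : v ⊆ interior (closure v) := interior_maximal subset_closure hv
  refine ⟨closure u, closure v, isClosed_closure, isClosed_closure, hO.mono hu' hv', ?_, ?_, ?_⟩
  · exact (subset_union_left.trans hPu).trans hui
  · exact (subset_union_left.trans hQv).trans hvi
  · intro x hx
    rw [← hU] at hx
    rcases hx with hx | hx
    · exact Or.inl (hui (hPu (Or.inr hx)))
    · exact Or.inr (hvi (hQv (Or.inr hx)))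

/-- Disjoint closed sets are separated by disjoint open sets which cover countably many given
compact totally disconnected sets. -/
theorem av [T2Space Z] [NormalSpace Z] {C : ℕ → Set Z} (hC : ∀ j, IsCompact (C j))
    (hCt : ∀ j, IsTotallyDisconnected (C j)) {P Q : Set Z} (hP : IsClosed P) (hQ : IsClosed Q)
    (hd : Disjoint P Q) :
    ∃ O O' : Set Z, IsOpen O ∧ IsOpen O' ∧ Disjoint O O' ∧ P ⊆ O ∧ Q ⊆ O' ∧
      ∀ j, C j ⊆ O ∪ O' := by
  let T := {p : Set Z × Set Z // IsClosed p.1 ∧ IsClosed p.2 ∧ Disjoint p.1 p.2}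
  have hstep : ∀ (j : ℕ) (p : T), ∃ q : T, p.1.1 ⊆ interior q.1.1 ∧ p.1.2 ⊆ interior q.1.2 ∧
      C j ⊆ interior q.1.1 ∪ interior q.1.2 := by
    rintro j ⟨⟨P', Q'⟩, h1, h2, h3⟩
    obtain ⟨P'', Q'', h4, h5, h6, h7, h8, h9⟩ := av_step (hC j) (hCt j) h1 h2 h3
    exact ⟨⟨(P'', Q''), h4, h5, h6⟩, h7, h8, h9⟩
  choose F hF1 hF2 hF3 using hstep
  let s : ℕ → T := fun j => Nat.rec ⟨(P, Q), hP, hQ, hd⟩ (fun j p => F j p) j
  have hs0 : s 0 = ⟨(P, Q), hP, hQ, hd⟩ := rfl
  have hss : ∀ j, s (j + 1) = F j (s j) := fun j => rfl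
  have hm1 : Monotone fun j => (s j).1.1 := monotone_nat_of_le_succ fun j => by
    show (s j).1.1 ⊆ (s (j + 1)).1.1
    rw [hss]
    exact (hF1 j (s j)).trans interior_subset
  have hm2 : Monotone fun j => (s j).1.2 := monotone_nat_of_le_succ fun j => by
    show (s j).1.2 ⊆ (s (j + 1)).1.2
    rw [hss]
    exact (hF2 j (s j)).trans interior_subset
  refine ⟨⋃ j, interior (s j).1.1, ⋃ j, interior (s j).1.2, isOpen_iUnion fun j => isOpen_interior,
    isOpen_iUnion fun j => isOpen_interior, ?_, ?_, ?_, ?_⟩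
  · rw [disjoint_left]
    intro x hx hx'
    obtain ⟨j, hj⟩ := mem_iUnion.1 hx
    obtain ⟨k, hk⟩ := mem_iUnion.1 hx'
    have h1 : x ∈ (s (max j k)).1.1 := hm1 (le_max_left j k) (interior_subset hj)
    have h2 : x ∈ (s (max j k)).1.2 := hm2 (le_max_right j k) (interior_subset hk)
    exact (disjoint_left.1 (s (max j k)).2.2.2) h1 h2
  · refine Subset.trans ?_ (subset_iUnion _ 1)
    have := hF1 0 (s 0)
    rw [← hss] at this
    exact this
  · refine Subset.trans ?_ (subset_iUnion _ 1)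
    have := hF2 0 (s 0)
    rw [← hss] at this
    exact this
  · intro j x hx
    have := hF3 j (s j) hx
    rw [← hss] at this
    rcases this with h | h
    · exact Or.inl (mem_iUnion.2 ⟨j + 1, h⟩)
    · exact Or.inr (mem_iUnion.2 ⟨j + 1, h⟩)

end Vale.Agent.P260.H283
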