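import Vale.Agent.P073.IoD
import Mathlib.Topology.Separation.Profinite
import Mathlib.Topology.Separation.Regular

/-!
# Extension of nonvanishing maps over nowhere dense compact sets, and images with interior
-/

open Set Topology Metric MeasureTheory
open Vale.Agent.P073.Sep

namespace Vale.Agent.P260.H283

variable {n : ℕ}

/-- Extension over a ball whose centre is missing. -/
theorem extNV_step (hn : 0 < n) {K K₀ A : Set (Fin n → ℝ)} {φ : (Fin n → ℝ) → (Fin n → ℝ)}
    (hK : IsCompact K) (hK₀ : IsCompact K₀) (hK₀K : K₀ ⊆ K) (h : ExtNV K₀ A φ)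
    {c : Fin n → ℝ} {ε : ℝ} (hε : 0 < ε) (hc : c ∉ K) (hdis : Disjoint A (closedBall c ε)) :
    ExtNV (K₀ ∪ K ∩ closedBall c ε) A φ := by
  classical
  obtain ⟨Ψ, hΨc, hΨ0, hΨ⟩ := h
  have hSc : IsCompact (sphere c ε) := isCompact_sphere _ _
  have : Nonempty (Fin n) := ⟨⟨0, hn⟩⟩
  have hS0 : volume (sphere c ε) = 0 := Measure.addHaar_sphere_of_ne_zero _ _ hε.ne'
  obtain ⟨Γ, hΓc, hΓ0, hΓ⟩ : ExtNV (sphere c ε) (sphere c ε ∩ K₀) Ψ :=
    extNV_of_null hSc hS0 (hSc.isClosed.inter hK₀.isClosed) inter_subset_left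
      (hΨc.mono inter_subset_right) (fun x hx => hΨ0 x hx.2)
  set ρ : (Fin n → ℝ) → (Fin n → ℝ) := fun y => c + (ε / dist y c) • (y - c) with hρ
  have hdist : ∀ y ∈ K, 0 < dist y c := fun y hy => dist_pos.2 (by rintro rfl; exact hc hy)
  have hρS : ∀ y ∈ K, ρ y ∈ sphere c ε := by
    intro y hy
    have hyc := hdist y hy
    rw [mem_sphere, hρ, dist_eq_norm, add_sub_cancel_left, norm_smul, Real.norm_eq_abs,
      abs_of_nonneg (by positivity), ← dist_eq_norm]
    exact div_mul_cancel₀ _ hyc.ne'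
  have hρc : ContinuousOn ρ K := by
    have h1 : ContinuousOn (fun y => ε / dist y c) K := by
      refine continuousOn_const.div (continuous_id.dist continuous_const).continuousOn ?_
      intro y hy
      exact (hdist y hy).ne'
    exact continuousOn_const.add (h1.smul (continuous_id.sub continuous_const).continuousOn)
  have hρfix : ∀ y ∈ sphere c ε, ρ y = y := by
    intro y hy
    rw [mem_sphere] at hy
    simp only [hρ, hy, div_self hε.ne', one_smul]
    abel
  have hset : K₀ ∪ K ∩ closedBall c ε = (K ∩ closedBall c ε) ∪ (K₀ \ ball c ε) := by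
    ext y
    constructor
    · rintro (hy | hy)
      · by_cases hb : y ∈ ball c ε
        · exact Or.inl ⟨hK₀K hy, ball_subset_closedBall hb⟩
        · exact Or.inr ⟨hy, hb⟩
      · exact Or.inl hy
    · rintro (hy | hy)
      · exact Or.inr hy
      · exact Or.inl hy.1
  refine ⟨fun y => if y ∈ closedBall c ε then Γ (ρ y) else Ψ y, ?_, ?_, ?_⟩
  · rw [hset]
    refine ContinuousOn.union_of_isClosed ?_ ?_ (hK.isClosed.inter isClosed_closedBall)
      (hK₀.isClosed.sdiff isOpen_ball)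
    · have h1 : ContinuousOn (fun y => Γ (ρ y)) (K ∩ closedBall c ε) :=
        hΓc.comp (hρc.mono inter_subset_left) (fun y hy => hρS y hy.1)
      refine h1.congr fun y hy => ?_
      simp only [hy.2, if_true]
    · have h1 : ContinuousOn Ψ (K₀ \ ball c ε) := hΨc.mono sdiff_subset
      refine h1.congr fun y hy => ?_
      by_cases hb : y ∈ closedBall c ε
      · have hs : y ∈ sphere c ε := by
          rw [mem_sphere]
          refine le_antisymm (mem_closedBall.1 hb) ?_
          exact not_lt.1 fun h => hy.2 (mem_ball.2 h)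
        simp only [hb, if_true]
        rw [hρfix y hs]
        exact hΓ y ⟨hs, hy.1⟩
      · simp only [hb, if_false]
  · intro y hy
    by_cases hb : y ∈ closedBall c ε
    · simp only [hb, if_true]
      refine hΓ0 _ (hρS y ?_)
      rcases hy with hy | hy
      · exact hK₀K hy
      · exact hy.1
    · simp only [hb, if_false]
      rcases hy with hy | hy
      · exact hΨ0 y hy
      · exact absurd hy.2 hb
  · intro y hy
    have hb : y ∉ closedBall c ε := disjoint_left.1 hdis hy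
    simp only [hb, if_false]
    exact hΨ y hy

/-- A nonvanishing map on a closed subset of a compact set without interior extends to a
nonvanishing map. -/
theorem extNV_of_interior_empty (hn : 0 < n) {K A : Set (Fin n → ℝ)} (hK : IsCompact K)
    (hK0 : interior K = ∅) (hA : IsClosed A) (hAK : A ⊆ K) {φ : (Fin n → ℝ) → (Fin n → ℝ)}
    (hφ : ContinuousOn φ A) (hφ0 : ∀ x ∈ A, φ x ≠ 0) : ExtNV K A φ := by
  classical
  have hAc : IsCompact A := hK.of_isClosed_subset hA hAK
  obtain ⟨m, hm0, hm⟩ : ∃ m : ℝ, 0 < m ∧ ∀ x ∈ A, m ≤ ‖φ x‖ := by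
    rcases A.eq_empty_or_nonempty with rfl | hne
    · exact ⟨1, one_pos, by simp⟩
    · obtain ⟨x0, hx0, hmin⟩ := hAc.exists_isMinOn hne hφ.norm
      exact ⟨‖φ x0‖, norm_pos_iff.2 (hφ0 x0 hx0), fun x hx => hmin hx⟩
  obtain ⟨D, hDc, hD⟩ := exists_ext hA hφ
  set K₀ : Set (Fin n → ℝ) := K ∩ {x | m / 2 ≤ ‖D x‖} with hK₀
  have hK₀c : IsCompact K₀ := hK.inter_right (isClosed_le continuous_const hDc.norm)
  set L : Set (Fin n → ℝ) := K ∩ {x | ‖D x‖ ≤ m / 2} with hL
  have hLc : IsCompact L := hK.inter_right (isClosed_le hDc.norm continuous_const)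
  have hAK₀ : A ⊆ K₀ := fun x hx => ⟨hAK hx, by
    show m / 2 ≤ ‖D x‖
    rw [hD x hx]
    linarith [hm x hx]⟩
  have hstart : ExtNV K₀ A φ := by
    refine ⟨D, hDc.continuousOn, fun x hx h0 => ?_, hD⟩
    have h1 : m / 2 ≤ ‖D x‖ := hx.2
    rw [h0, norm_zero] at h1
    linarith
  have hloc : ∀ z ∈ L, ∃ (c : Fin n → ℝ) (ε : ℝ), 0 < ε ∧ c ∉ K ∧ z ∈ ball c ε ∧
      Disjoint A (closedBall c ε) := by
    intro z hz
    have hzA : z ∉ A := by
      intro h
      have h1 : ‖D z‖ ≤ m / 2 := hz.2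
      rw [hD z h] at h1
      linarith [hm z h]
    obtain ⟨ε, hε, hb⟩ := Metric.mem_nhds_iff.1 (hA.isOpen_compl.mem_nhds hzA)
    have hnot : ¬ ball z (ε / 3) ⊆ K := by
      intro h
      have : z ∈ interior K := mem_interior.2 ⟨_, h, isOpen_ball, mem_ball_self (by positivity)⟩
      rw [hK0] at this
      exact this
    obtain ⟨c, hcz, hcK⟩ := not_subset.1 hnot
    refine ⟨c, ε / 3, by positivity, hcK, ?_, ?_⟩
    · rw [mem_ball, dist_comm]; exact hcz
    · rw [disjoint_left]
      intro x hx hxb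
      refine hb (mem_ball.2 ?_) hx
      have h1 := dist_triangle x c z
      rw [mem_closedBall] at hxb
      rw [mem_ball] at hcz
      linarith
  choose! c ε hε hc hz hd using hloc
  obtain ⟨t, hcov⟩ := hLc.elim_nhds_subcover' (fun z hz' => ball (c z) (ε z))
    (fun z hz' => isOpen_ball.mem_nhds (hz z hz'))
  have key : ∀ s : Finset L, IsCompact (K₀ ∪ ⋃ z ∈ s, K ∩ closedBall (c z) (ε z)) ∧
      (K₀ ∪ ⋃ z ∈ s, K ∩ closedBall (c z) (ε z)) ⊆ K ∧
      ExtNV (K₀ ∪ ⋃ z ∈ s, K ∩ closedBall (c z) (ε z)) A φ := by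
    intro s
    induction s using Finset.induction_on with
    | empty => simpa using ⟨hK₀c, inter_subset_left, hstart⟩
    | insert z s _ ih =>
      obtain ⟨h1, h2, h3⟩ := ih
      have he : (K₀ ∪ ⋃ w ∈ insert z s, K ∩ closedBall (c w) (ε w)) =
          (K₀ ∪ ⋃ w ∈ s, K ∩ closedBall (c w) (ε w)) ∪ K ∩ closedBall (c z) (ε z) := by
        rw [Finset.set_biUnion_insert, union_assoc, union_comm (K ∩ closedBall (c z) (ε z))]
      rw [he]
      refine ⟨h1.union (hK.inter_right isClosed_closedBall), union_subset h2 inter_subset_left, ?_⟩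
      exact extNV_step hn hK h1 h2 h3 (hε z z.2) (hc z z.2)
        (hd z z.2)
  obtain ⟨-, -, Φ, hΦc, hΦ0, hΦ⟩ := key t
  have hsub : K ⊆ K₀ ∪ ⋃ z ∈ t, K ∩ closedBall (c z) (ε z) := by
    intro x hx
    by_cases hxD : m / 2 ≤ ‖D x‖
    · exact Or.inl ⟨hx, hxD⟩
    · right
      have hxL : x ∈ L := ⟨hx, (not_le.1 hxD).le⟩
      obtain ⟨z, hzt, hxz⟩ := mem_iUnion₂.1 (hcov hxL)
      exact mem_iUnion₂.2 ⟨z, hzt, hx, ball_subset_closedBall hxz⟩
  exact ⟨Φ, hΦc.mono hsub, fun x hx => hΦ0 x (hsub hx), hΦ⟩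

/-- A map on a compact set which is injective on the frontier has an image with interior. -/
theorem interior_image_nonempty (hn : 0 < n) {X : Set (Fin n → ℝ)} (hX : IsCompact X)
    {x0 : Fin n → ℝ} (hx0 : x0 ∈ interior X) {f : (Fin n → ℝ) → (Fin n → ℝ)}
    (hf : ContinuousOn f X) (hinj : InjOn f (frontier X)) : (interior (f '' X)).Nonempty := by
  by_contra hcon
  rw [Set.not_nonempty_iff_eq_empty] at hcon
  have hTX : frontier X ⊆ X := hX.isClosed.frontier_subset
  have hTc : IsCompact (frontier X) := hX.of_isClosed_subset isClosed_frontier hTX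
  set A := f '' frontier X with hA
  have hAc : IsCompact A := hTc.image_of_continuousOn (hf.mono hTX)
  obtain ⟨g, hgc, hg⟩ : ∃ g : (Fin n → ℝ) → (Fin n → ℝ), ContinuousOn g A ∧
      ∀ x ∈ frontier X, g (f x) = x := by
    set g := Function.invFunOn f (frontier X) with hgdef
    have hgl : ∀ x ∈ frontier X, g (f x) = x := fun x hx => hinj.leftInvOn_invFunOn hx
    refine ⟨g, ?_, hgl⟩
    rw [continuousOn_iff_isClosed]
    intro t ht
    refine ⟨f '' (frontier X ∩ t), ?_, ?_⟩
    · exact ((hTc.inter_right ht).image_of_continuousOn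
        (hf.mono (inter_subset_left.trans hTX))).isClosed
    · ext y
      constructor
      · rintro ⟨hy, x, hx, rfl⟩
        have : g (f x) ∈ t := hy
        rw [hgl x hx] at this
        exact ⟨⟨x, ⟨hx, this⟩, rfl⟩, ⟨x, hx, rfl⟩⟩
      · rintro ⟨⟨x, ⟨hx, hxt⟩, rfl⟩, -⟩
        refine ⟨?_, x, hx, rfl⟩
        show g (f x) ∈ t
        rwa [hgl x hx]
  obtain ⟨Γ, hΓc, hΓ0, hΓ⟩ : ExtNV (f '' X) A (fun y => g y - x0) := by
    refine extNV_of_interior_empty hn (hX.image_of_continuousOn hf) hcon hAc.isClosed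
      (image_mono hTX) (hgc.sub continuousOn_const) ?_
    rintro _ ⟨x, hx, rfl⟩ h0
    rw [hg x hx, sub_eq_zero] at h0
    rw [h0] at hx
    exact hx.2 hx0
  refine not_extNV_of_mem hX (T := frontier X) Subset.rfl (interior_subset hx0)
    ⟨fun x => Γ (f x), ?_, ?_, ?_⟩
  · exact hΓc.comp hf fun x hx => ⟨x, hx, rfl⟩
  · intro x hx
    exact hΓ0 _ ⟨x, hx, rfl⟩
  · intro x hx
    have h1 := hΓ (f x) ⟨x, hx, rfl⟩
    simp only [hg x hx] at h1
    exact h1

end Vale.Agent.P260.H283
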